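import Vale.Agent.P329.Chan2

namespace Vale.Agent.Results.P329.GroupHeight

open Vale.Agent.P329

theorem result (α : Type) [Finite α] (L : Language α) (h : GroupClosure L) :
    ∃ P : GRE α, P.lang = L ∧ P.sh ≤ 3 := by
  obtain ⟨P, h1, h2⟩ := h.ht
  exact ⟨P, Language.ext h1, h2⟩

end Vale.Agent.Results.P329.GroupHeight
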